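import Vale.Agent.P371.Mix

open MeasureTheory Set Real Filter Topology SchwartzMap
open scoped FourierTransform ContDiff

namespace LT371

open Polynomial in
lemma iteratedDeriv_bound (a : ℝ) (ha : 0 ≤ a) : ∀ (n : ℕ) (P : ℝ[X]), ∃ (k : ℕ) (C : ℝ), ∀ x : ℝ,
    ‖iteratedDeriv n (fun ξ : ℝ => P.eval ξ * rexp (-(a * ξ ^ 2))) x‖ ≤ C * (1 + ‖x‖) ^ k := by
  intro n
  induction n with
  | zero =>
    intro P
    have hP : Function.HasTemperateGrowth (fun x : ℝ => P.eval x) := by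
      have e : (fun x : ℝ => P.eval x) =
          fun x => ∑ i ∈ Finset.range (P.natDegree + 1), P.coeff i * x ^ i := by
        ext x; exact Polynomial.eval_eq_sum_range x
      rw [e]
      refine Function.HasTemperateGrowth.sum fun i _ => ?_
      exact (Function.HasTemperateGrowth.const _).mul (Function.HasTemperateGrowth.id'.pow i)
    obtain ⟨k, C, h⟩ := hP.2 0
    refine ⟨k, C, fun x => ?_⟩
    have h0 := h x
    rw [norm_iteratedFDeriv_zero] at h0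
    rw [iteratedDeriv_zero, norm_mul]
    have : ‖rexp (-(a * x ^ 2))‖ ≤ 1 := by
      rw [Real.norm_of_nonneg (exp_pos _).le, Real.exp_le_one_iff]
      have : 0 ≤ a * x ^ 2 := by positivity
      linarith
    calc _ ≤ ‖P.eval x‖ * 1 := by gcongr
      _ ≤ _ := by rw [mul_one]; exact h0
  | succ n ih =>
    intro P
    obtain ⟨k, C, h⟩ := ih (derivative P + P * (Polynomial.C (-(2 * a)) * X))
    refine ⟨k, C, fun x => ?_⟩
    rw [iteratedDeriv_succ']
    have : deriv (fun ξ : ℝ => P.eval ξ * rexp (-(a * ξ ^ 2))) = fun ξ =>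
        (derivative P + P * (Polynomial.C (-(2 * a)) * X)).eval ξ * rexp (-(a * ξ ^ 2)) := by
      ext ξ
      have h1 : HasDerivAt (fun ξ : ℝ => P.eval ξ) ((derivative P).eval ξ) ξ := P.hasDerivAt ξ
      have h2 : HasDerivAt (fun ξ : ℝ => rexp (-(a * ξ ^ 2)))
          (rexp (-(a * ξ ^ 2)) * (-(a * (2 * ξ)))) ξ := by
        have := (((hasDerivAt_pow 2 ξ).const_mul a).neg).exp
        simpa using this
      have h3 : HasDerivAt (fun ξ : ℝ => P.eval ξ * rexp (-(a * ξ ^ 2)))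
          ((derivative P).eval ξ * rexp (-(a * ξ ^ 2)) +
            P.eval ξ * (rexp (-(a * ξ ^ 2)) * (-(a * (2 * ξ))))) ξ := h1.mul h2
      rw [h3.deriv]
      simp only [eval_add, eval_mul, eval_C, eval_X]
      ring
    rw [this]
    exact h x

lemma temperate_gauss (a : ℝ) (ha : 0 ≤ a) :
    Function.HasTemperateGrowth (fun ξ : ℝ => rexp (-(a * ξ ^ 2))) := by
  refine ⟨by fun_prop, fun n => ?_⟩
  obtain ⟨k, C, h⟩ := iteratedDeriv_bound a ha n 1
  refine ⟨k, C, fun x => ?_⟩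
  rw [norm_iteratedFDeriv_eq_norm_iteratedDeriv]
  simpa using h x

/-- The heat filter. -/
noncomputable def G (t ξ : ℝ) : ℝ := rexp (-(|t| * ξ ^ 2))

lemma G_pos (t ξ : ℝ) : 0 < G t ξ := exp_pos _

lemma G_le_one (t ξ : ℝ) : G t ξ ≤ 1 := by
  unfold G
  rw [Real.exp_le_one_iff]
  have : 0 ≤ |t| * ξ ^ 2 := by positivity
  linarith

lemma abs_one_sub_G_le (t ξ : ℝ) : |1 - G t ξ| ≤ 1 := by
  rw [abs_of_nonneg (by linarith [G_le_one t ξ])]
  linarith [G_pos t ξ]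

lemma continuous_G : Continuous (fun p : ℝ × ℝ => G p.1 p.2) := by
  unfold G
  fun_prop

lemma temperate_one_sub (t : ℝ) : Function.HasTemperateGrowth (fun ξ : ℝ => 1 - G t ξ) :=
  (Function.HasTemperateGrowth.const (1:ℝ)).sub (temperate_gauss |t| (abs_nonneg t))

variable {H : Type*} [NormedAddCommGroup H] [InnerProductSpace ℂ H] [CompleteSpace H]

/-- The high-pass part `(1 - e^{t ∂²}) ψ` (with the `2π` free Fourier variable). -/
noncomputable def Rt (t : ℝ) (ψ : 𝓢(ℝ, H)) : 𝓢(ℝ, H) :=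
  𝓕⁻ (smulLeftCLM H (fun ξ : ℝ => 1 - G t ξ) (𝓕 ψ))

lemma fourier_Rt (t : ℝ) (ψ : 𝓢(ℝ, H)) (ξ : ℝ) :
    𝓕 (Rt t ψ) ξ = (1 - G t ξ) • 𝓕 ψ ξ := by
  unfold Rt
  rw [FourierTransform.fourier_fourierInv_eq, smulLeftCLM_apply_apply (temperate_one_sub t)]

lemma Rt_apply (t : ℝ) (ψ : 𝓢(ℝ, H)) (x : ℝ) :
    Rt t ψ x = ∫ ξ : ℝ, 𝐞 (inner ℝ ξ x) • ((1 - G t ξ) • 𝓕 ψ ξ) := by
  unfold Rt
  rw [fourierInv_coe, Real.fourierInv_eq]
  simp_rw [smulLeftCLM_apply_apply (temperate_one_sub t)]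

lemma self_apply (ψ : 𝓢(ℝ, H)) (x : ℝ) :
    ψ x = ∫ ξ : ℝ, 𝐞 (inner ℝ ξ x) • 𝓕 ψ ξ := by
  have h : 𝓕⁻ (𝓕 ψ) = ψ := FourierTransform.fourierInv_fourier_eq ψ
  conv_lhs => rw [← h]
  rw [fourierInv_coe, Real.fourierInv_eq]

/-- Plancherel for the high-pass part. -/
lemma integral_Rt_sq (t : ℝ) (ψ : 𝓢(ℝ, H)) :
    ∫ x, ‖Rt t ψ x‖ ^ 2 = ∫ ξ, ‖(1 - G t ξ) • 𝓕 ψ ξ‖ ^ 2 := by
  rw [← integral_norm_sq_fourier (Rt t ψ)]
  simp_rw [fourier_Rt]

/-- The Fourier phase as a complex number. -/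
noncomputable def z (x ξ : ℝ) : ℂ := ((𝐞 (inner ℝ ξ x) : Circle) : ℂ)

omit [CompleteSpace H] in
lemma circle_smul (x ξ : ℝ) (v : H) : 𝐞 (inner ℝ ξ x) • v = z x ξ • v := rfl

lemma norm_z (x ξ : ℝ) : ‖z x ξ‖ = 1 := Circle.norm_coe _

lemma continuous_z : Continuous fun p : ℝ × ℝ => z p.1 p.2 := by
  unfold z
  have h1 : Continuous fun p : ℝ × ℝ => (inner ℝ p.2 p.1 : ℝ) := continuous_snd.inner continuous_fst
  exact continuous_subtype_val.comp (Real.continuous_fourierChar.comp h1)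

lemma continuous_z_right (x : ℝ) : Continuous (z x) :=
  continuous_z.comp (by fun_prop : Continuous fun ξ : ℝ => (x, ξ))

lemma Rt_apply' (t : ℝ) (ψ : 𝓢(ℝ, H)) (x : ℝ) :
    Rt t ψ x = ∫ ξ : ℝ, z x ξ • ((1 - G t ξ) • 𝓕 ψ ξ) := by
  rw [Rt_apply]
  rfl

lemma self_apply' (ψ : 𝓢(ℝ, H)) (x : ℝ) :
    ψ x = ∫ ξ : ℝ, z x ξ • 𝓕 ψ ξ := by
  rw [self_apply]
  rfl

omit [CompleteSpace H] in
lemma inner_rsmul (e v : H) (r : ℝ) : inner ℂ e (r • v) = (r : ℂ) * inner ℂ e v := by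
  rw [← Complex.coe_smul, inner_smul_right]

/-- Joint continuity of the high-pass part. -/
lemma continuous_Rt (ψ : 𝓢(ℝ, H)) : Continuous fun p : ℝ × ℝ => Rt p.1 ψ p.2 := by
  simp_rw [Rt_apply']
  refine continuous_of_dominated (bound := fun ξ => ‖𝓕 ψ ξ‖) ?_ ?_ ((𝓕 ψ).integrable (μ := volume)).norm ?_
  · intro p
    refine Continuous.aestronglyMeasurable ?_
    have : Continuous fun ξ : ℝ => G p.1 ξ :=
      continuous_G.comp (by fun_prop : Continuous fun ξ : ℝ => (p.1, ξ))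
    have c : Continuous fun ξ : ℝ => 1 - G p.1 ξ := continuous_const.sub this
    have c2 : Continuous fun ξ : ℝ => (1 - G p.1 ξ) • 𝓕 ψ ξ := c.smul (𝓕 ψ).continuous
    exact (continuous_z_right p.2).smul c2
  · intro p
    refine Eventually.of_forall fun ξ => ?_
    rw [norm_smul, norm_z, one_mul, norm_smul]
    calc _ ≤ 1 * ‖𝓕 ψ ξ‖ := by
          gcongr
          exact abs_one_sub_G_le _ _
      _ = _ := one_mul _
  · refine Eventually.of_forall fun ξ => ?_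
    have c1 : Continuous fun p : ℝ × ℝ => z p.2 ξ :=
      continuous_z.comp (by fun_prop : Continuous fun p : ℝ × ℝ => (p.2, ξ))
    have c0 : Continuous fun p : ℝ × ℝ => G p.1 ξ :=
      continuous_G.comp (by fun_prop : Continuous fun p : ℝ × ℝ => (p.1, ξ))
    have c : Continuous fun p : ℝ × ℝ => 1 - G p.1 ξ := continuous_const.sub c0
    have c2 : Continuous fun p : ℝ × ℝ => (1 - G p.1 ξ) • 𝓕 ψ ξ := c.smul continuous_const
    exact c1.smul c2

/-- The scale decomposition of a Schwartz function. -/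
lemma decomposition (ρ h : ℝ → ℝ) (hρc : Continuous ρ) (hρi : IntegrableOn ρ (Ioi 0))
    (hF : ∀ ξ, ∫ t in Ioi (0:ℝ), ρ t * (1 - G t ξ) = 1 - h ξ) (φ : 𝓢(ℝ, H)) (x : ℝ) :
    Integrable (fun t => ρ t • Rt t φ x) (volume.restrict (Ioi 0)) ∧
    Integrable (fun ξ => h ξ • (z x ξ • 𝓕 φ ξ)) ∧
    φ x = (∫ ξ, h ξ • (z x ξ • 𝓕 φ ξ)) + ∫ t in Ioi (0:ℝ), ρ t • Rt t φ x := by
  set f : ℝ → ℝ → H := fun t ξ => (ρ t * (1 - G t ξ)) • (z x ξ • 𝓕 φ ξ) with hf_def
  have hfi : Integrable (Function.uncurry f) ((volume.restrict (Ioi 0)).prod volume) := by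
    have dom := (hρi.norm).mul_prod (((𝓕 φ).integrable (μ := volume)).norm)
    refine dom.mono' ?_ ?_
    · refine Continuous.aestronglyMeasurable ?_
      have c1 : Continuous fun p : ℝ × ℝ => ρ p.1 * (1 - G p.1 p.2) :=
        (hρc.comp continuous_fst).mul (continuous_const.sub continuous_G)
      have c2 : Continuous fun p : ℝ × ℝ => z x p.2 := (continuous_z_right x).comp continuous_snd
      have c3 : Continuous fun p : ℝ × ℝ => 𝓕 φ p.2 := (𝓕 φ).continuous.comp continuous_snd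
      have c4 : Continuous fun p : ℝ × ℝ => z x p.2 • 𝓕 φ p.2 := c2.smul c3
      exact c1.smul c4
    · refine Eventually.of_forall fun p => ?_
      simp only [Function.uncurry, hf_def]
      rw [norm_smul, norm_smul, norm_z, one_mul, norm_mul]
      have := abs_one_sub_G_le p.1 p.2
      rw [Real.norm_eq_abs (1 - G p.1 p.2)]
      calc _ ≤ ‖ρ p.1‖ * 1 * ‖𝓕 φ p.2‖ := by gcongr
        _ = _ := by ring
  have in1 : ∀ t, ∫ ξ, f t ξ = ρ t • Rt t φ x := by
    intro t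
    rw [Rt_apply', ← integral_smul]
    refine integral_congr_ae (Eventually.of_forall fun ξ => ?_)
    simp only [hf_def]
    rw [mul_smul, smul_comm (1 - G t ξ) (z x ξ)]
  have in2 : ∀ ξ, ∫ t in Ioi (0:ℝ), f t ξ = (1 - h ξ) • (z x ξ • 𝓕 φ ξ) := by
    intro ξ
    simp only [hf_def]
    rw [integral_smul_const, hF]
  have sw := integral_integral_swap (f := f) hfi
  have i1 : Integrable (fun t => ρ t • Rt t φ x) (volume.restrict (Ioi 0)) := by
    have := hfi.integral_prod_left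
    simp only [Function.uncurry_apply_pair] at this
    exact this.congr (Eventually.of_forall in1)
  have i2 : Integrable (fun ξ => (1 - h ξ) • (z x ξ • 𝓕 φ ξ)) := by
    have := hfi.integral_prod_right
    simp only [Function.uncurry_apply_pair] at this
    exact this.congr (Eventually.of_forall in2)
  have i3 : Integrable (fun ξ => z x ξ • 𝓕 φ ξ) := by
    refine ((𝓕 φ).integrable (μ := volume)).norm.mono' ?_ ?_
    · exact ((continuous_z_right x).smul (𝓕 φ).continuous).aestronglyMeasurable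
    · refine Eventually.of_forall fun ξ => ?_
      rw [norm_smul, norm_z, one_mul]
  have e4 : ∀ ξ, h ξ • (z x ξ • 𝓕 φ ξ) = z x ξ • 𝓕 φ ξ - (1 - h ξ) • (z x ξ • 𝓕 φ ξ) := by
    intro ξ
    rw [sub_smul, one_smul]
    abel
  have i4 : Integrable (fun ξ => h ξ • (z x ξ • 𝓕 φ ξ)) := by
    simp_rw [e4]
    exact i3.sub i2
  refine ⟨i1, i4, ?_⟩
  have e5 : ∫ t in Ioi (0:ℝ), ρ t • Rt t φ x = ∫ ξ, (1 - h ξ) • (z x ξ • 𝓕 φ ξ) := by
    simp_rw [← in1, sw, in2]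
  rw [e5, ← integral_add i4 i2]
  have e6 : ∀ ξ, h ξ • (z x ξ • 𝓕 φ ξ) + (1 - h ξ) • (z x ξ • 𝓕 φ ξ) = z x ξ • 𝓕 φ ξ := by
    intro ξ
    rw [e4 ξ]
    abel
  simp_rw [e6]
  exact self_apply' φ x

end LT371
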