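import Vale.Agent.P371.Pointwise

open MeasureTheory Set Real Filter Topology SchwartzMap
open scoped FourierTransform ContDiff ComplexConjugate

namespace LT371

variable {H : Type*} [NormedAddCommGroup H] [InnerProductSpace ℂ H] [CompleteSpace H]

omit [CompleteSpace H] in
lemma integrable_sq (f : 𝓢(ℝ, H)) : Integrable (fun x => ‖f x‖ ^ 2) :=
  (f.memLp 2 volume).integrable_norm_pow (by norm_num)

omit [CompleteSpace H] in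
lemma lint_sq (f : 𝓢(ℝ, H)) :
    ∫⁻ x, ENNReal.ofReal (‖f x‖ ^ 2) = ENNReal.ofReal (∫ x, ‖f x‖ ^ 2) :=
  (ofReal_integral_eq_lintegral_ofReal (integrable_sq f)
    (Eventually.of_forall fun _ => by positivity)).symm

/-- Fourier description of the kinetic energy. -/
lemma fourier_derivCLM (ψ : 𝓢(ℝ, H)) (ξ : ℝ) :
    ‖𝓕 (derivCLM ℂ H ψ) ξ‖ ^ 2 = 4 * π ^ 2 * (ξ ^ 2 * ‖𝓕 ψ ξ‖ ^ 2) := by
  have hD : ∀ x, derivCLM ℂ H ψ x = deriv ψ x := fun x => derivCLM_apply ℂ ψ x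
  have hDf : (⇑(derivCLM ℂ H ψ) : ℝ → H) = deriv ψ := funext hD
  have h := Real.fourier_deriv (f := ψ) ψ.integrable ψ.differentiable
    (by rw [← hDf]; exact (derivCLM ℂ H ψ).integrable)
  have h2 : 𝓕 (derivCLM ℂ H ψ) ξ = (2 * π * Complex.I * ξ) • 𝓕 ψ ξ := by
    rw [fourier_coe, hDf, h]
    rfl
  rw [h2, norm_smul, mul_pow]
  have h3 : ‖(2 * π * Complex.I * ξ : ℂ)‖ = 2 * π * |ξ| := by
    simp [abs_of_pos pi_pos]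
  rw [h3, mul_pow, mul_pow, sq_abs]
  ring

lemma kinetic (ψ : 𝓢(ℝ, H)) :
    Integrable (fun ξ => ξ ^ 2 * ‖𝓕 ψ ξ‖ ^ 2) ∧
    ∫ x, ‖deriv ψ x‖ ^ 2 = 4 * π ^ 2 * ∫ ξ, ξ ^ 2 * ‖𝓕 ψ ξ‖ ^ 2 := by
  have hD : ∀ x, derivCLM ℂ H ψ x = deriv ψ x := fun x => derivCLM_apply ℂ ψ x
  have hpos : (0:ℝ) < 4 * π ^ 2 := by positivity
  constructor
  · have := (integrable_sq (𝓕 (derivCLM ℂ H ψ) : 𝓢(ℝ, H))).const_mul ((4 * π ^ 2)⁻¹)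
    refine this.congr (Eventually.of_forall fun ξ => ?_)
    simp only
    rw [fourier_derivCLM]
    field_simp
  · simp_rw [← hD]
    rw [← integral_norm_sq_fourier (derivCLM ℂ H ψ)]
    simp_rw [fourier_derivCLM]
    rw [integral_const_mul]

lemma measurable_Rt_sq (ψ : 𝓢(ℝ, H)) :
    Measurable fun p : ℝ × ℝ => ‖Rt p.2 ψ p.1‖ ^ 2 := by
  have h0 : Continuous fun p : ℝ × ℝ => ‖Rt p.1 ψ p.2‖ := (continuous_Rt ψ).norm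
  have h1 : Measurable fun p : ℝ × ℝ => ‖Rt p.1 ψ p.2‖ ^ 2 := (h0.pow 2).measurable
  have h : Measurable ((fun p : ℝ × ℝ => ‖Rt p.1 ψ p.2‖ ^ 2) ∘ Prod.swap) := h1.comp measurable_swap
  have e : (fun p : ℝ × ℝ => ‖Rt p.2 ψ p.1‖ ^ 2) =
      ((fun p : ℝ × ℝ => ‖Rt p.1 ψ p.2‖ ^ 2) ∘ Prod.swap) := by
    funext p
    simp only [Function.comp, Prod.fst_swap, Prod.snd_swap]
  rw [e]
  exact h

/-- The energy identity (as an inequality). -/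
lemma energy (ψ : 𝓢(ℝ, H)) :
    ENNReal.ofReal (2 * π ^ 2 / Real.log 2) *
      ∫⁻ x, ∫⁻ t in Ioi (0:ℝ), ENNReal.ofReal ((t ^ 2)⁻¹ * ‖Rt t ψ x‖ ^ 2) ≤
    ENNReal.ofReal (∫ x, ‖deriv ψ x‖ ^ 2) := by
  have hlog : 0 < Real.log 2 := Real.log_pos (by norm_num)
  have hm1 : Measurable fun p : ℝ × ℝ => ENNReal.ofReal ((p.2 ^ 2)⁻¹ * ‖Rt p.2 ψ p.1‖ ^ 2) := by
    have c2 : Measurable fun p : ℝ × ℝ => ‖Rt p.2 ψ p.1‖ ^ 2 := measurable_Rt_sq ψ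
    refine Measurable.ennreal_ofReal (Measurable.mul ?_ c2)
    exact (measurable_snd.pow_const 2).inv
  -- swap `x` and `t`
  have sw1 : ∫⁻ x, ∫⁻ t in Ioi (0:ℝ), ENNReal.ofReal ((t ^ 2)⁻¹ * ‖Rt t ψ x‖ ^ 2) =
      ∫⁻ t in Ioi (0:ℝ), ∫⁻ x, ENNReal.ofReal ((t ^ 2)⁻¹ * ‖Rt t ψ x‖ ^ 2) :=
    lintegral_lintegral_swap hm1.aemeasurable
  -- Plancherel at fixed scale
  have pl : ∀ t, ∫⁻ x, ENNReal.ofReal ((t ^ 2)⁻¹ * ‖Rt t ψ x‖ ^ 2) =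
      ∫⁻ ξ, ENNReal.ofReal ((t ^ 2)⁻¹ * (1 - G t ξ) ^ 2 * ‖𝓕 ψ ξ‖ ^ 2) := by
    intro t
    have e1 : ∀ x, ENNReal.ofReal ((t ^ 2)⁻¹ * ‖Rt t ψ x‖ ^ 2) =
        ENNReal.ofReal ((t ^ 2)⁻¹) * ENNReal.ofReal (‖Rt t ψ x‖ ^ 2) := fun x =>
      ENNReal.ofReal_mul (by positivity)
    have e2 : ∀ ξ, ENNReal.ofReal ((t ^ 2)⁻¹ * (1 - G t ξ) ^ 2 * ‖𝓕 ψ ξ‖ ^ 2) =
        ENNReal.ofReal ((t ^ 2)⁻¹) * ENNReal.ofReal (‖𝓕 (Rt t ψ) ξ‖ ^ 2) := fun ξ => by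
      rw [fourier_Rt, norm_smul, mul_pow, Real.norm_eq_abs, sq_abs, ← ENNReal.ofReal_mul (by positivity)]
      ring_nf
    simp_rw [e1, e2]
    rw [lintegral_const_mul' _ _ ENNReal.ofReal_ne_top, lintegral_const_mul' _ _ ENNReal.ofReal_ne_top,
      lint_sq, lint_sq, integral_norm_sq_fourier]
  -- swap `t` and `ξ`
  have hm2 : Measurable fun p : ℝ × ℝ =>
      ENNReal.ofReal ((p.1 ^ 2)⁻¹ * (1 - G p.1 p.2) ^ 2 * ‖𝓕 ψ p.2‖ ^ 2) := by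
    have c : Measurable fun p : ℝ × ℝ => (1 - G p.1 p.2) ^ 2 :=
      ((continuous_const.sub continuous_G).pow 2).measurable
    have c2 : Measurable fun p : ℝ × ℝ => ‖𝓕 ψ p.2‖ ^ 2 :=
      (((𝓕 ψ : 𝓢(ℝ, H)).continuous.comp continuous_snd).norm.pow 2).measurable
    refine Measurable.ennreal_ofReal (Measurable.mul (Measurable.mul ?_ c) c2)
    exact (measurable_fst.pow_const 2).inv
  have sw2 : ∫⁻ t in Ioi (0:ℝ), ∫⁻ ξ, ENNReal.ofReal ((t ^ 2)⁻¹ * (1 - G t ξ) ^ 2 * ‖𝓕 ψ ξ‖ ^ 2) =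
      ∫⁻ ξ, ∫⁻ t in Ioi (0:ℝ), ENNReal.ofReal ((t ^ 2)⁻¹ * (1 - G t ξ) ^ 2 * ‖𝓕 ψ ξ‖ ^ 2) :=
    lintegral_lintegral_swap hm2.aemeasurable
  -- scale integral
  have sc : ∀ ξ, ∫⁻ t in Ioi (0:ℝ), ENNReal.ofReal ((t ^ 2)⁻¹ * (1 - G t ξ) ^ 2 * ‖𝓕 ψ ξ‖ ^ 2) ≤
      ENNReal.ofReal (2 * Real.log 2 * (ξ ^ 2 * ‖𝓕 ψ ξ‖ ^ 2)) := by
    intro ξ
    have e1 : ∀ t ∈ Ioi (0:ℝ), ENNReal.ofReal ((t ^ 2)⁻¹ * (1 - G t ξ) ^ 2 * ‖𝓕 ψ ξ‖ ^ 2) =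
        ENNReal.ofReal ((t ^ 2)⁻¹ * (1 - rexp (-(t * ξ ^ 2))) ^ 2) * ENNReal.ofReal (‖𝓕 ψ ξ‖ ^ 2) := by
      intro t ht
      have ht' : (0:ℝ) < t := ht
      rw [← ENNReal.ofReal_mul (by positivity)]
      unfold G
      rw [abs_of_pos ht']
    rw [setLIntegral_congr_fun measurableSet_Ioi e1, lintegral_mul_const' _ _ ENNReal.ofReal_ne_top]
    calc _ ≤ ENNReal.ofReal (2 * Real.log 2 * ξ ^ 2) * ENNReal.ofReal (‖𝓕 ψ ξ‖ ^ 2) := by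
          gcongr
          exact lint_energy (ξ ^ 2) (by positivity)
      _ = _ := by
          rw [← ENNReal.ofReal_mul (by positivity)]
          ring_nf
  obtain ⟨hki, hkv⟩ := kinetic ψ
  rw [sw1]
  simp_rw [pl]
  rw [sw2]
  calc _ ≤ ENNReal.ofReal (2 * π ^ 2 / Real.log 2) *
        ∫⁻ ξ, ENNReal.ofReal (2 * Real.log 2 * (ξ ^ 2 * ‖𝓕 ψ ξ‖ ^ 2)) := by
        gcongr with ξ
        exact sc ξ
    _ = ENNReal.ofReal (2 * π ^ 2 / Real.log 2) *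
        ENNReal.ofReal (∫ ξ, 2 * Real.log 2 * (ξ ^ 2 * ‖𝓕 ψ ξ‖ ^ 2)) := by
        rw [ofReal_integral_eq_lintegral_ofReal (hki.const_mul _)
          (Eventually.of_forall fun ξ => by positivity)]
    _ = _ := by
        rw [← ENNReal.ofReal_mul (by positivity), integral_const_mul, hkv]
        congr 1
        field_simp
        ring

end LT371
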