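import Vale.Agent.P371.Energy

open MeasureTheory Set Real Filter Topology SchwartzMap
open scoped FourierTransform ContDiff ComplexConjugate ComplexOrder

namespace LT371

section direction

variable {H : Type*} [NormedAddCommGroup H] [InnerProductSpace ℂ H] [CompleteSpace H]
variable {ι : Type*} [Fintype ι]

/-- The constant produced by the mixture `(c, q)`. -/
noncomputable def Cst (c q : ι → ℝ) : ℝ :=
  3 / 2 * nMix c q * √(3 * dMix c q * Real.log 2 / 2)

lemma rpow_three_halves {w : ℝ} (hw : 0 < w) : w ^ (3 / 2 : ℝ) = w * √w := by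
  have : (3 / 2 : ℝ) = 1 + 1 / 2 := by norm_num
  rw [this, Real.rpow_add hw, Real.rpow_one, Real.sqrt_eq_rpow]

lemma dir_bound (c q : ι → ℝ) (hq : ∀ i, 0 < q i) (hc : ∑ i, c i = 1) (hD : 0 < dMix c q)
    {N : ℕ} (ψ : Fin N → 𝓢(ℝ, H))
    (hψ : ∀ j k, ∫ x, inner ℂ (ψ j x) (ψ k x) = if j = k then (1 : ℂ) else 0)
    (e : H) (he : ‖e‖ = 1) (x : ℝ) (w : ℝ) (hw : 0 ≤ w) :
    ENNReal.ofReal (w * ∑ j, ‖inner ℂ e (ψ j x)‖ ^ 2) ≤
      ENNReal.ofReal (Cst c q * w ^ (3 / 2 : ℝ)) + ENNReal.ofReal (2 * π ^ 2 / Real.log 2) *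
        ∫⁻ t in Ioi (0:ℝ), ENNReal.ofReal ((t ^ 2)⁻¹ * ∑ j, ‖inner ℂ e (Rt t (ψ j) x)‖ ^ 2) := by
  rcases hw.eq_or_lt with rfl | hw'
  · simp
  have hlog : 0 < Real.log 2 := Real.log_pos (by norm_num)
  set D := dMix c q with hD_def
  set L := Real.log 2 with hL_def
  set R := √(3 * D * L / 2) with hR_def
  have hR : 0 < R := Real.sqrt_pos.2 (by positivity)
  have hR2 : R ^ 2 = 3 * D * L / 2 := Real.sq_sqrt (by positivity)
  have hsw : 0 < √w := Real.sqrt_pos.2 hw'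
  have hsw2 : √w ^ 2 = w := Real.sq_sqrt hw
  set s := R / π * √w with hs_def
  have hs : 0 < s := by positivity
  have hh := integrable_hMix_sq c q hs hq
  have base := pointwise (H := H) (rhoMix c q s) (hMix c q s) (continuous_rhoMix c q s)
    (integrableOn_rhoMix c q hs hq) (fun ξ => integral_rhoMix_filter c q hs hq hc ξ)
    (continuous_hMix c q hs hq) hh.1 (n2 := s * π * nMix c q) (d := D / s ^ 2) hh.2.le
    (by positivity) (lint_rhoMix_sq c q hs hq).le ψ hψ e he x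
  rw [ENNReal.ofReal_mul hw]
  calc ENNReal.ofReal w * ENNReal.ofReal (∑ j, ‖inner ℂ e (ψ j x)‖ ^ 2)
      ≤ ENNReal.ofReal w * _ := mul_le_mul' le_rfl base
    _ = _ := by
      have e1 : w * (3 / 2 * (s * π * nMix c q)) = Cst c q * w ^ (3 / 2 : ℝ) := by
        rw [rpow_three_halves hw']
        unfold Cst
        simp only [hs_def]
        have : π ≠ 0 := pi_ne_zero
        field_simp
        change R * nMix c q = nMix c q * R
        ring
      have e2 : w * (3 * (D / s ^ 2)) = 2 * π ^ 2 / L := by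
        have hs2 : s ^ 2 = 3 * D * L / 2 / π ^ 2 * w := by
          simp only [hs_def]
          rw [mul_pow, div_pow, hR2, hsw2]
        rw [hs2]
        have : π ≠ 0 := pi_ne_zero
        field_simp
      rw [mul_add, ← ENNReal.ofReal_mul hw, e1, ← mul_assoc, ← ENNReal.ofReal_mul hw, e2]

end direction

section matrix

variable {m : ℕ}

lemma potential_eq (W : Matrix (Fin m) (Fin m) ℂ) (hW : W.IsHermitian)
    (v : EuclideanSpace ℂ (Fin m)) :
    (star v.ofLp ⬝ᵥ W.mulVec v.ofLp).re =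
      ∑ l, hW.eigenvalues l * ‖inner ℂ (hW.eigenvectorBasis l) v‖ ^ 2 := by
  set b := hW.eigenvectorBasis with hb
  have hv : v.ofLp = ∑ l, inner ℂ (b l) v • (b l).ofLp := by
    conv_lhs => rw [← b.sum_repr' v]
    simp [WithLp.ofLp_sum, WithLp.ofLp_smul]
  have hWv : W.mulVec v.ofLp = ∑ l, inner ℂ (b l) v • ((hW.eigenvalues l : ℝ) • (b l).ofLp) := by
    conv_lhs => rw [hv]
    rw [Matrix.mulVec_sum]
    refine Finset.sum_congr rfl fun l _ => ?_
    rw [Matrix.mulVec_smul, hW.mulVec_eigenvectorBasis]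
  have hdot : ∀ l, star v.ofLp ⬝ᵥ (b l).ofLp = inner ℂ v (b l) := by
    intro l
    rw [EuclideanSpace.inner_eq_star_dotProduct, dotProduct_comm]
  rw [hWv, dotProduct_sum, Complex.re_sum]
  refine Finset.sum_congr rfl fun l _ => ?_
  rw [dotProduct_smul, dotProduct_smul, hdot, smul_eq_mul]
  rw [Complex.real_smul]
  have h1 : inner ℂ v (b l) = conj (inner ℂ (b l) v) := (inner_conj_symm _ _).symm
  rw [h1]
  have h2 : inner ℂ (b l) v * ((hW.eigenvalues l : ℂ) * conj (inner ℂ (b l) v)) =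
      ((hW.eigenvalues l * ‖inner ℂ (b l) v‖ ^ 2 : ℝ) : ℂ) := by
    rw [mul_comm (hW.eigenvalues l : ℂ), ← mul_assoc, Complex.mul_conj, Complex.normSq_eq_norm_sq]
    push_cast
    ring
  rw [h2, Complex.ofReal_re]

end matrix

section main

variable {m : ℕ}

lemma meas_inner_Rt (ψ : 𝓢(ℝ, EuclideanSpace ℂ (Fin m))) (x : ℝ) (e : EuclideanSpace ℂ (Fin m)) :
    Measurable fun t : ℝ => ‖inner ℂ e (Rt t ψ x)‖ ^ 2 := by
  have h0 : Continuous ((fun p : ℝ × ℝ => Rt p.1 ψ p.2) ∘ (fun t : ℝ => (t, x))) :=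
    (continuous_Rt ψ).comp (by fun_prop)
  have h1 : Continuous fun t : ℝ => Rt t ψ x := h0
  have h2 : Continuous fun t : ℝ => ‖inner ℂ e (Rt t ψ x)‖ ^ 2 :=
    ((continuous_const.inner h1).norm).pow 2
  exact h2.measurable

lemma meas_norm_Rt (ψ : 𝓢(ℝ, EuclideanSpace ℂ (Fin m))) (x : ℝ) :
    Measurable fun t : ℝ => ‖Rt t ψ x‖ ^ 2 := by
  have h0 : Continuous ((fun p : ℝ × ℝ => Rt p.1 ψ p.2) ∘ (fun t : ℝ => (t, x))) :=
    (continuous_Rt ψ).comp (by fun_prop)
  have h1 : Continuous fun t : ℝ => Rt t ψ x := h0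
  exact (h1.norm.pow 2).measurable

/-- Summing the directional bound over an orthonormal basis. -/
lemma sum_basis {ι : Type*} [Fintype ι] {N : ℕ} (ψ : Fin N → 𝓢(ℝ, EuclideanSpace ℂ (Fin m)))
    (b : OrthonormalBasis (Fin m) ℂ (EuclideanSpace ℂ (Fin m))) (x : ℝ) :
    ∑ l, ∫⁻ t in Ioi (0:ℝ), ENNReal.ofReal ((t ^ 2)⁻¹ * ∑ j, ‖inner ℂ (b l) (Rt t (ψ j) x)‖ ^ 2) =
      ∑ j, ∫⁻ t in Ioi (0:ℝ), ENNReal.ofReal ((t ^ 2)⁻¹ * ‖Rt t (ψ j) x‖ ^ 2) := by
  have hinv : Measurable fun t : ℝ => (t ^ 2)⁻¹ := (measurable_id.pow_const 2).inv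
  rw [← lintegral_finsetSum, ← lintegral_finsetSum]
  · refine lintegral_congr fun t => ?_
    rw [← ENNReal.ofReal_sum_of_nonneg (fun _ _ => by positivity),
      ← ENNReal.ofReal_sum_of_nonneg (fun _ _ => by positivity), ← Finset.mul_sum, ← Finset.mul_sum]
    rw [Finset.sum_comm]
    simp_rw [b.sum_sq_norm_inner_right]
  · intro j _
    exact (hinv.mul (meas_norm_Rt (ψ j) x)).ennreal_ofReal
  · intro l _
    refine (hinv.mul ?_).ennreal_ofReal
    exact Finset.measurable_sum _ fun j _ => meas_inner_Rt (ψ j) x (b l)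

lemma nMix_nonneg {ι : Type*} [Fintype ι] (c q : ι → ℝ) (hq : ∀ i, 0 < q i) : 0 ≤ nMix c q := by
  have h := (integrable_hMix_sq c q one_pos hq).2
  have h0 : 0 ≤ ∫ ξ, hMix c q 1 ξ ^ 2 := integral_nonneg fun ξ => by positivity
  rw [h] at h0
  have : 0 < (1:ℝ) * π := by positivity
  exact nonneg_of_mul_nonneg_right h0 this

lemma Cst_nonneg {ι : Type*} [Fintype ι] (c q : ι → ℝ) (hq : ∀ i, 0 < q i) : 0 ≤ Cst c q := by
  unfold Cst
  have := nMix_nonneg c q hq
  positivity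

/-- The pointwise inequality for the potential energy density. -/
lemma total_pointwise {ι : Type*} [Fintype ι] (c q : ι → ℝ) (hq : ∀ i, 0 < q i)
    (hc : ∑ i, c i = 1) (hD : 0 < dMix c q) {N : ℕ}
    (ψ : Fin N → 𝓢(ℝ, EuclideanSpace ℂ (Fin m)))
    (hψ : ∀ j k, ∫ x, inner ℂ (ψ j x) (ψ k x) = if j = k then (1 : ℂ) else 0)
    (W : Matrix (Fin m) (Fin m) ℂ) (hW : W.PosSemidef) (x : ℝ) :
    ENNReal.ofReal (∑ j, (star (ψ j x).ofLp ⬝ᵥ W.mulVec (ψ j x).ofLp).re) ≤
      ENNReal.ofReal (Cst c q * ∑ l, hW.1.eigenvalues l ^ (3 / 2 : ℝ)) +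
        ENNReal.ofReal (2 * π ^ 2 / Real.log 2) *
          ∑ j, ∫⁻ t in Ioi (0:ℝ), ENNReal.ofReal ((t ^ 2)⁻¹ * ‖Rt t (ψ j) x‖ ^ 2) := by
  classical
  set hH := hW.1 with hH_def
  set b := hH.eigenvectorBasis with hb
  have hw : ∀ l, 0 ≤ hH.eigenvalues l := fun l => hW.eigenvalues_nonneg l
  have hsum : ∑ j, (star (ψ j x).ofLp ⬝ᵥ W.mulVec (ψ j x).ofLp).re =
      ∑ l, hH.eigenvalues l * ∑ j, ‖inner ℂ (b l) (ψ j x)‖ ^ 2 := by
    simp_rw [potential_eq W hH, Finset.mul_sum]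
    rw [Finset.sum_comm]
  rw [hsum, ENNReal.ofReal_sum_of_nonneg (fun l _ => mul_nonneg (hw l) (by positivity)),
    ← sum_basis (ι := ι) ψ b x, Finset.mul_sum, Finset.mul_sum,
    ENNReal.ofReal_sum_of_nonneg (fun l _ =>
      mul_nonneg (Cst_nonneg c q hq) (Real.rpow_nonneg (hw l) _)), ← Finset.sum_add_distrib]
  refine Finset.sum_le_sum fun l _ => ?_
  exact dir_bound c q hq hc hD ψ hψ (b l) (b.orthonormal.1 l) x _ (hw l)

theorem main_general {ι : Type*} [Fintype ι] (c q : ι → ℝ) (hq : ∀ i, 0 < q i)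
    (hc : ∑ i, c i = 1) (hD : 0 < dMix c q) {N : ℕ}
    (W : ℝ → Matrix (Fin m) (Fin m) ℂ) (hWm : ∀ a b, Measurable fun x => W x a b)
    (hW : ∀ x, (W x).PosSemidef)
    (hWi : Integrable fun x => ∑ l, (hW x).1.eigenvalues l ^ (3 / 2 : ℝ))
    (ψ : Fin N → 𝓢(ℝ, EuclideanSpace ℂ (Fin m)))
    (hψ : ∀ j k, ∫ x, inner ℂ (ψ j x) (ψ k x) = if j = k then (1 : ℂ) else 0) :
    (∀ j, Integrable fun x => (star (ψ j x).ofLp ⬝ᵥ (W x).mulVec (ψ j x).ofLp).re) ∧
    ∑ j, ∫ x, (star (ψ j x).ofLp ⬝ᵥ (W x).mulVec (ψ j x).ofLp).re ≤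
      (∑ j, ∫ x, ‖deriv (ψ j) x‖ ^ 2) + Cst c q * ∫ x, ∑ l, (hW x).1.eigenvalues l ^ (3 / 2 : ℝ) := by
  classical
  set P : Fin N → ℝ → ℝ := fun j x => (star (ψ j x).ofLp ⬝ᵥ (W x).mulVec (ψ j x).ofLp).re with hP
  set Vw : ℝ → ℝ := fun x => ∑ l, (hW x).1.eigenvalues l ^ (3 / 2 : ℝ) with hVw
  set T : Fin N → ℝ := fun j => ∫ x, ‖deriv (ψ j) x‖ ^ 2 with hT
  set E : Fin N → ℝ → ENNReal := fun j x =>
    ∫⁻ t in Ioi (0:ℝ), ENNReal.ofReal ((t ^ 2)⁻¹ * ‖Rt t (ψ j) x‖ ^ 2) with hE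
  have hCst := Cst_nonneg c q hq
  have hVw0 : ∀ x, 0 ≤ Vw x := fun x =>
    Finset.sum_nonneg fun l _ => Real.rpow_nonneg ((hW x).eigenvalues_nonneg l) _
  have hP0 : ∀ j x, 0 ≤ P j x := by
    intro j x
    simp only [hP]
    rw [potential_eq (W x) (hW x).1]
    exact Finset.sum_nonneg fun l _ => mul_nonneg ((hW x).eigenvalues_nonneg l) (by positivity)
  have hPm : ∀ j, Measurable (P j) := by
    intro j
    have hψc : ∀ a, Measurable fun x => (ψ j x).ofLp a := by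
      intro a
      have h1 : Continuous fun x => (ψ j x).ofLp a := by
        have := (ψ j).continuous
        fun_prop
      exact h1.measurable
    simp only [hP, dotProduct, Matrix.mulVec, Pi.star_apply]
    refine Complex.measurable_re.comp (Finset.measurable_sum _ fun a _ => ?_)
    refine Measurable.mul ?_ (Finset.measurable_sum _ fun b _ => (hWm a b).mul (hψc b))
    exact continuous_star.measurable.comp (hψc a)
  have hEm : ∀ j, Measurable (E j) := by
    intro j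
    have hm1 : Measurable fun p : ℝ × ℝ => ENNReal.ofReal ((p.2 ^ 2)⁻¹ * ‖Rt p.2 (ψ j) p.1‖ ^ 2) := by
      refine Measurable.ennreal_ofReal (Measurable.mul ?_ (measurable_Rt_sq (ψ j)))
      exact (measurable_snd.pow_const 2).inv
    exact hm1.lintegral_prod_right'
  -- the integrated inequality
  have hmain : ∫⁻ x, ENNReal.ofReal (∑ j, P j x) ≤
      ENNReal.ofReal (Cst c q * (∫ x, Vw x) + ∑ j, T j) := by
    have hT0 : ∀ j, 0 ≤ T j := fun j => integral_nonneg fun x => by positivity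
    have hV0 : 0 ≤ ∫ x, Vw x := integral_nonneg hVw0
    calc ∫⁻ x, ENNReal.ofReal (∑ j, P j x)
        ≤ ∫⁻ x, (ENNReal.ofReal (Cst c q * Vw x) +
            ENNReal.ofReal (2 * π ^ 2 / Real.log 2) * ∑ j, E j x) :=
          lintegral_mono fun x => total_pointwise c q hq hc hD ψ hψ (W x) (hW x) x
      _ = ENNReal.ofReal (Cst c q * (∫ x, Vw x)) +
            ENNReal.ofReal (2 * π ^ 2 / Real.log 2) * ∑ j, ∫⁻ x, E j x := by
          have h1 : AEMeasurable fun x => ENNReal.ofReal (Cst c q * Vw x) :=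
            ((hWi.const_mul _).aestronglyMeasurable.aemeasurable).ennreal_ofReal
          rw [lintegral_add_left' h1, lintegral_const_mul' _ _ ENNReal.ofReal_ne_top,
            lintegral_finsetSum _ fun j _ => hEm j,
            ← ofReal_integral_eq_lintegral_ofReal (hWi.const_mul _)
              (Eventually.of_forall fun x => mul_nonneg hCst (hVw0 x)), integral_const_mul]
      _ ≤ ENNReal.ofReal (Cst c q * (∫ x, Vw x)) + ∑ j, ENNReal.ofReal (T j) := by
          refine add_le_add le_rfl ?_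
          rw [Finset.mul_sum]
          exact Finset.sum_le_sum fun j _ => energy (ψ j)
      _ = _ := by
          rw [← ENNReal.ofReal_sum_of_nonneg fun j _ => hT0 j,
            ENNReal.ofReal_add (mul_nonneg hCst hV0) (Finset.sum_nonneg fun j _ => hT0 j)]
  have hfin : ∫⁻ x, ENNReal.ofReal (∑ j, P j x) < ⊤ := hmain.trans_lt ENNReal.ofReal_lt_top
  have hPi : ∀ j, Integrable (P j) := by
    intro j
    refine ⟨(hPm j).aestronglyMeasurable, ?_⟩
    rw [hasFiniteIntegral_iff_ofReal (Eventually.of_forall (hP0 j))]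
    refine lt_of_le_of_lt (lintegral_mono fun x => ?_) hfin
    refine ENNReal.ofReal_le_ofReal ?_
    exact Finset.single_le_sum (f := fun j => P j x) (fun j _ => hP0 j x) (Finset.mem_univ j)
  refine ⟨hPi, ?_⟩
  have hsumI : Integrable fun x => ∑ j, P j x := integrable_finsetSum _ fun j _ => hPi j
  rw [← integral_finsetSum _ fun j _ => hPi j]
  rw [← ofReal_integral_eq_lintegral_ofReal hsumI
    (Eventually.of_forall fun x => Finset.sum_nonneg fun j _ => hP0 j x)] at hmain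
  have hT0 : ∀ j, 0 ≤ T j := fun j => integral_nonneg fun x => by positivity
  have hV0 : 0 ≤ ∫ x, Vw x := integral_nonneg hVw0
  have := (ENNReal.ofReal_le_ofReal_iff
    (add_nonneg (mul_nonneg hCst hV0) (Finset.sum_nonneg fun j _ => hT0 j))).1 hmain
  linarith

end main

end LT371
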