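import Vale.Agent.P371.Scalar

open MeasureTheory Set Real Filter Topology

namespace LT371

lemma integrable_inv_sq_add {q : ℝ} (hq : 0 < q) : Integrable (fun ξ : ℝ => (q ^ 2 + ξ ^ 2)⁻¹) := by
  have h := (integrable_inv_one_add_sq.comp_div hq.ne').const_mul ((q ^ 2)⁻¹)
  refine h.congr (Eventually.of_forall fun ξ => ?_)
  simp only
  field_simp

lemma integral_inv_sq_add {q : ℝ} (hq : 0 < q) : ∫ ξ : ℝ, (q ^ 2 + ξ ^ 2)⁻¹ = π / q := by
  have e : ∀ ξ : ℝ, (q ^ 2 + ξ ^ 2)⁻¹ = (q ^ 2)⁻¹ * (1 + (ξ / q) ^ 2)⁻¹ := fun ξ => by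
    field_simp
  simp_rw [e]
  rw [integral_const_mul, Measure.integral_comp_div (fun y : ℝ => (1 + y ^ 2)⁻¹) q,
    integral_univ_inv_one_add_sq, abs_of_pos hq, smul_eq_mul]
  field_simp

lemma integrable_inv_mul {q r : ℝ} (hq : 0 < q) (hr : 0 < r) :
    Integrable (fun ξ : ℝ => (q ^ 2 + ξ ^ 2)⁻¹ * (r ^ 2 + ξ ^ 2)⁻¹) := by
  refine ((integrable_inv_sq_add hq).mul_const ((r ^ 2)⁻¹)).mono' (by fun_prop) ?_
  refine Eventually.of_forall fun ξ => ?_
  have h1 : 0 < q ^ 2 + ξ ^ 2 := by positivity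
  have h2 : 0 < r ^ 2 + ξ ^ 2 := by positivity
  rw [Real.norm_of_nonneg (by positivity)]
  gcongr
  nlinarith [sq_nonneg ξ]

lemma integral_inv_sq_add_self {q : ℝ} (hq : 0 < q) :
    ∫ ξ : ℝ, (q ^ 2 + ξ ^ 2)⁻¹ * (q ^ 2 + ξ ^ 2)⁻¹ = π / (q * q * (q + q)) := by
  have hd : ∀ ξ : ℝ, HasDerivAt
      (fun ξ : ℝ => ξ / (2 * q ^ 2 * (q ^ 2 + ξ ^ 2)) + arctan (ξ / q) / (2 * q ^ 3))
      ((q ^ 2 + ξ ^ 2)⁻¹ * (q ^ 2 + ξ ^ 2)⁻¹) ξ := by
    intro ξ
    have h0 : q ^ 2 + ξ ^ 2 ≠ 0 := by positivity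
    have h1 : HasDerivAt (fun ξ : ℝ => 2 * q ^ 2 * (q ^ 2 + ξ ^ 2)) (2 * q ^ 2 * (2 * ξ)) ξ := by
      have := ((hasDerivAt_pow 2 ξ).const_add (q ^ 2)).const_mul (2 * q ^ 2)
      simpa using this
    have h2 : HasDerivAt (fun ξ : ℝ => ξ / (2 * q ^ 2 * (q ^ 2 + ξ ^ 2)))
        ((1 * (2 * q ^ 2 * (q ^ 2 + ξ ^ 2)) - ξ * (2 * q ^ 2 * (2 * ξ))) /
          (2 * q ^ 2 * (q ^ 2 + ξ ^ 2)) ^ 2) ξ :=
      (hasDerivAt_id ξ).div h1 (by positivity)
    have h3 : HasDerivAt (fun ξ : ℝ => arctan (ξ / q) / (2 * q ^ 3))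
        ((1 / (1 + (ξ / q) ^ 2) * (1 / q)) / (2 * q ^ 3)) ξ := by
      have := (((hasDerivAt_id ξ).div_const q).arctan).div_const (2 * q ^ 3)
      simpa using this
    refine (h2.add h3).congr_deriv ?_
    field_simp
    ring
  have hint := integrable_inv_mul hq hq
  have hbot : Tendsto (fun ξ : ℝ => ξ / (2 * q ^ 2 * (q ^ 2 + ξ ^ 2)) + arctan (ξ / q) / (2 * q ^ 3))
      atBot (𝓝 (0 + (-(π / 2)) / (2 * q ^ 3))) := by
    refine Tendsto.add ?_ (Tendsto.div_const ?_ _)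
    · have : Tendsto (fun ξ : ℝ => |ξ / (2 * q ^ 2 * (q ^ 2 + ξ ^ 2))|) atBot (𝓝 0) := by
        have hb : ∀ ξ : ℝ, |ξ / (2 * q ^ 2 * (q ^ 2 + ξ ^ 2))| ≤ (2 * q ^ 2)⁻¹ * |ξ|⁻¹ := by
          intro ξ
          rcases eq_or_ne ξ 0 with rfl | hξ
          · simp
          have hp : 0 < |ξ| := abs_pos.2 hξ
          rw [abs_div, abs_of_pos (by positivity : 0 < 2 * q ^ 2 * (q ^ 2 + ξ ^ 2))]
          rw [div_le_iff₀ (by positivity)]
          have : (2 * q ^ 2)⁻¹ * |ξ|⁻¹ * (2 * q ^ 2 * (q ^ 2 + ξ ^ 2)) = (q ^ 2 + ξ ^ 2) / |ξ| := by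
            field_simp
          rw [this, le_div_iff₀ hp]
          nlinarith [sq_abs ξ, sq_nonneg q]
        refine squeeze_zero (fun _ => abs_nonneg _) hb ?_
        have h1 : Tendsto (fun ξ : ℝ => |ξ|⁻¹) atBot (𝓝 0) :=
          tendsto_inv_atTop_zero.comp tendsto_abs_atBot_atTop
        have h2 := h1.const_mul ((2 * q ^ 2)⁻¹)
        rw [mul_zero] at h2
        exact h2
      exact (tendsto_zero_iff_abs_tendsto_zero _).2 this
    · exact tendsto_arctan_atBot.mono_right nhdsWithin_le_nhds |>.comp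
        (tendsto_id.atBot_div_const hq)
  have htop : Tendsto (fun ξ : ℝ => ξ / (2 * q ^ 2 * (q ^ 2 + ξ ^ 2)) + arctan (ξ / q) / (2 * q ^ 3))
      atTop (𝓝 (0 + (π / 2) / (2 * q ^ 3))) := by
    refine Tendsto.add ?_ (Tendsto.div_const ?_ _)
    · have : Tendsto (fun ξ : ℝ => |ξ / (2 * q ^ 2 * (q ^ 2 + ξ ^ 2))|) atTop (𝓝 0) := by
        have hb : ∀ ξ : ℝ, |ξ / (2 * q ^ 2 * (q ^ 2 + ξ ^ 2))| ≤ (2 * q ^ 2)⁻¹ * |ξ|⁻¹ := by
          intro ξ
          rcases eq_or_ne ξ 0 with rfl | hξ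
          · simp
          have hp : 0 < |ξ| := abs_pos.2 hξ
          rw [abs_div, abs_of_pos (by positivity : 0 < 2 * q ^ 2 * (q ^ 2 + ξ ^ 2))]
          rw [div_le_iff₀ (by positivity)]
          have : (2 * q ^ 2)⁻¹ * |ξ|⁻¹ * (2 * q ^ 2 * (q ^ 2 + ξ ^ 2)) = (q ^ 2 + ξ ^ 2) / |ξ| := by
            field_simp
          rw [this, le_div_iff₀ hp]
          nlinarith [sq_abs ξ, sq_nonneg q]
        refine squeeze_zero (fun _ => abs_nonneg _) hb ?_
        have h1 : Tendsto (fun ξ : ℝ => |ξ|⁻¹) atTop (𝓝 0) :=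
          tendsto_inv_atTop_zero.comp tendsto_abs_atTop_atTop
        have h2 := h1.const_mul ((2 * q ^ 2)⁻¹)
        rw [mul_zero] at h2
        exact h2
      exact (tendsto_zero_iff_abs_tendsto_zero _).2 this
    · exact tendsto_arctan_atTop.mono_right nhdsWithin_le_nhds |>.comp
        (tendsto_id.atTop_div_const hq)
  have := integral_of_hasDerivAt_of_tendsto hd hint hbot htop
  rw [this]
  field_simp
  ring

lemma integral_inv_mul {q r : ℝ} (hq : 0 < q) (hr : 0 < r) :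
    ∫ ξ : ℝ, (q ^ 2 + ξ ^ 2)⁻¹ * (r ^ 2 + ξ ^ 2)⁻¹ = π / (q * r * (q + r)) := by
  rcases eq_or_ne q r with rfl | hne
  · exact integral_inv_sq_add_self hq
  have hd : r ^ 2 - q ^ 2 ≠ 0 := by
    intro h
    have : (r - q) * (r + q) = 0 := by linarith
    rcases mul_eq_zero.1 this with h | h
    · exact hne (by linarith)
    · linarith
  have e : ∀ ξ : ℝ, (q ^ 2 + ξ ^ 2)⁻¹ * (r ^ 2 + ξ ^ 2)⁻¹ =
      ((r ^ 2 - q ^ 2)⁻¹) * ((q ^ 2 + ξ ^ 2)⁻¹ - (r ^ 2 + ξ ^ 2)⁻¹) := fun ξ => by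
    have h1 : q ^ 2 + ξ ^ 2 ≠ 0 := by positivity
    have h2 : r ^ 2 + ξ ^ 2 ≠ 0 := by positivity
    field_simp
    ring
  simp_rw [e]
  rw [integral_const_mul, integral_sub (integrable_inv_sq_add hq) (integrable_inv_sq_add hr),
    integral_inv_sq_add hq, integral_inv_sq_add hr]
  have h3 : r - q ≠ 0 := sub_ne_zero.2 hne.symm
  have h4 : r + q ≠ 0 := by positivity
  have h5 : r ^ 2 - q ^ 2 = (r - q) * (r + q) := by ring
  rw [h5]
  field_simp
  ring

/-! The exponential mixture. -/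

variable {ι : Type*} [Fintype ι]

/-- The signed weight on scales `t`. -/
noncomputable def rhoMix (c q : ι → ℝ) (s t : ℝ) : ℝ :=
  ∑ i, c i * ((s * q i) ^ 2 * rexp (-((s * q i) ^ 2 * t)))

/-- The corresponding low-pass Fourier multiplier. -/
noncomputable def hMix (c q : ι → ℝ) (s ξ : ℝ) : ℝ :=
  ∑ i, c i * ((s * q i) ^ 2 * ((s * q i) ^ 2 + ξ ^ 2)⁻¹)

lemma continuous_rhoMix (c q : ι → ℝ) (s : ℝ) : Continuous (rhoMix c q s) := by
  unfold rhoMix
  fun_prop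

lemma continuous_hMix (c q : ι → ℝ) {s : ℝ} (hs : 0 < s) (hq : ∀ i, 0 < q i) :
    Continuous (hMix c q s) := by
  unfold hMix
  refine continuous_finsetSum _ fun i _ => ?_
  refine continuous_const.mul (continuous_const.mul (Continuous.inv₀ (by fun_prop) fun ξ => ?_))
  have := hq i
  positivity

lemma integrableOn_exp {β : ℝ} (hβ : 0 < β) :
    IntegrableOn (fun t : ℝ => rexp (-(β * t))) (Ioi 0) := by
  have := integrableOn_exp_mul_Ioi (a := -β) (by linarith) 0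
  refine this.congr_fun (fun t _ => ?_) measurableSet_Ioi
  simp only; ring_nf

lemma integral_exp_Ioi {β : ℝ} (hβ : 0 < β) :
    ∫ t in Ioi (0:ℝ), rexp (-(β * t)) = 1 / β := by
  have := integral_exp_mul_Ioi (a := -β) (by linarith) 0
  have e : ∀ t : ℝ, rexp (-(β * t)) = rexp (-β * t) := fun t => by ring_nf
  simp_rw [e, this]
  simp

lemma integrableOn_rhoMix (c q : ι → ℝ) {s : ℝ} (hs : 0 < s) (hq : ∀ i, 0 < q i) :
    IntegrableOn (rhoMix c q s) (Ioi 0) := by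
  unfold rhoMix
  refine integrable_finsetSum _ fun i _ => ?_
  have hb : 0 < (s * q i) ^ 2 := by have := hq i; positivity
  exact ((integrableOn_exp hb).const_mul _).const_mul _

/-- The filter identity `∫ ρ (1 - G_t) = 1 - h`. -/
lemma integral_rhoMix_filter (c q : ι → ℝ) {s : ℝ} (hs : 0 < s) (hq : ∀ i, 0 < q i)
    (hc : ∑ i, c i = 1) (ξ : ℝ) :
    ∫ t in Ioi (0:ℝ), rhoMix c q s t * (1 - rexp (-(|t| * ξ ^ 2))) = 1 - hMix c q s ξ := by
  have term : ∀ i, ∫ t in Ioi (0:ℝ), c i * ((s * q i) ^ 2 * rexp (-((s * q i) ^ 2 * t))) *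
        (1 - rexp (-(|t| * ξ ^ 2))) =
      c i - c i * ((s * q i) ^ 2 * ((s * q i) ^ 2 + ξ ^ 2)⁻¹) := by
    intro i
    have hb : 0 < (s * q i) ^ 2 := by have := hq i; positivity
    have hb2 : 0 < (s * q i) ^ 2 + ξ ^ 2 := by positivity
    have e : ∀ t ∈ Ioi (0:ℝ), c i * ((s * q i) ^ 2 * rexp (-((s * q i) ^ 2 * t))) *
        (1 - rexp (-(|t| * ξ ^ 2))) =
        c i * (s * q i) ^ 2 * rexp (-((s * q i) ^ 2 * t)) -
          c i * (s * q i) ^ 2 * rexp (-(((s * q i) ^ 2 + ξ ^ 2) * t)) := by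
      intro t ht
      have ht' : (0:ℝ) < t := ht
      rw [abs_of_pos ht']
      have : rexp (-(((s * q i) ^ 2 + ξ ^ 2) * t)) =
          rexp (-((s * q i) ^ 2 * t)) * rexp (-(t * ξ ^ 2)) := by
        rw [← Real.exp_add]; ring_nf
      rw [this]; ring
    rw [setIntegral_congr_fun measurableSet_Ioi e,
      integral_sub ((integrableOn_exp hb).const_mul _) ((integrableOn_exp hb2).const_mul _),
      integral_const_mul, integral_const_mul, integral_exp_Ioi hb, integral_exp_Ioi hb2]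
    generalize (s * q i) ^ 2 = β at hb hb2
    field_simp
    try ring
  have e2 : ∀ t, rhoMix c q s t * (1 - rexp (-(|t| * ξ ^ 2))) =
      ∑ i, c i * ((s * q i) ^ 2 * rexp (-((s * q i) ^ 2 * t))) * (1 - rexp (-(|t| * ξ ^ 2))) := by
    intro t; unfold rhoMix; rw [Finset.sum_mul]
  simp_rw [e2]
  rw [integral_finsetSum]
  · simp_rw [term]
    rw [Finset.sum_sub_distrib, hc]
    rfl
  · intro i _
    have hb : 0 < (s * q i) ^ 2 := by have := hq i; positivity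
    refine (((integrableOn_exp hb).const_mul _).const_mul _).mul_bdd (c := 1) ?_ ?_
    · exact Continuous.aestronglyMeasurable (by fun_prop)
    · refine Eventually.of_forall fun t => ?_
      rw [Real.norm_of_nonneg]
      · have : 0 < rexp (-(|t| * ξ ^ 2)) := exp_pos _
        linarith
      · have : rexp (-(|t| * ξ ^ 2)) ≤ 1 := by
          rw [Real.exp_le_one_iff]
          have : 0 ≤ |t| * ξ ^ 2 := by positivity
          linarith
        linarith

/-- `∫ t² exp(-σ t) = 2/σ³`. -/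
lemma integral_sq_exp {σ : ℝ} (hσ : 0 < σ) :
    ∫ t in Ioi (0:ℝ), t ^ 2 * rexp (-(σ * t)) = 2 / σ ^ 3 := by
  have := Real.integral_rpow_mul_exp_neg_mul_Ioi (a := 3) (r := σ) (by norm_num) hσ
  have hG : Real.Gamma 3 = 2 := by
    have h := Real.Gamma_nat_eq_factorial 2
    have e : (((2:ℕ):ℝ) + 1) = 3 := by norm_num
    rw [e] at h
    rw [h]
    norm_num [Nat.factorial]
  rw [hG] at this
  have e2 : ∫ t in Ioi (0:ℝ), t ^ 2 * rexp (-(σ * t)) =
      ∫ t in Ioi (0:ℝ), t ^ ((3:ℝ) - 1) * rexp (-(σ * t)) := by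
    refine setIntegral_congr_fun measurableSet_Ioi fun t ht => ?_
    have ht' : (0:ℝ) < t := ht
    have : ((3:ℝ) - 1) = ((2:ℕ):ℝ) := by norm_num
    rw [this, Real.rpow_natCast]
  rw [e2, this]
  have h3 : ((1 / σ) ^ (3:ℝ)) = 1 / σ ^ 3 := by
    have : (3:ℝ) = ((3:ℕ):ℝ) := by norm_num
    rw [this, Real.rpow_natCast]
    field_simp
  rw [h3]
  ring

lemma integrableOn_sq_exp {σ : ℝ} (hσ : 0 < σ) :
    IntegrableOn (fun t : ℝ => t ^ 2 * rexp (-(σ * t))) (Ioi 0) := by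
  by_contra hni
  have h0 : ∫ t in Ioi (0:ℝ), t ^ 2 * rexp (-(σ * t)) = 0 := integral_undef hni
  rw [integral_sq_exp hσ] at h0
  have : 0 < 2 / σ ^ 3 := by positivity
  linarith

/-- The weight norm `∫ ρ² t²`. -/
noncomputable def dMix (c q : ι → ℝ) : ℝ :=
  ∑ i, ∑ j, c i * c j * (2 * q i ^ 2 * q j ^ 2 / (q i ^ 2 + q j ^ 2) ^ 3)

/-- The L² norm constant. -/
noncomputable def nMix (c q : ι → ℝ) : ℝ :=
  ∑ i, ∑ j, c i * c j * (q i * q j / (q i + q j))

lemma lint_rhoMix_sq (c q : ι → ℝ) {s : ℝ} (hs : 0 < s) (hq : ∀ i, 0 < q i) :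
    ∫⁻ t in Ioi (0:ℝ), ENNReal.ofReal (rhoMix c q s t ^ 2 * t ^ 2) =
      ENNReal.ofReal (dMix c q / s ^ 2) := by
  have e : ∀ t, rhoMix c q s t ^ 2 * t ^ 2 =
      ∑ i, ∑ j, c i * c j * ((s * q i) ^ 2 * (s * q j) ^ 2) *
        (t ^ 2 * rexp (-(((s * q i) ^ 2 + (s * q j) ^ 2) * t))) := by
    intro t
    unfold rhoMix
    rw [sq, Finset.sum_mul_sum, Finset.sum_mul]
    refine Finset.sum_congr rfl fun i _ => ?_
    rw [Finset.sum_mul]
    refine Finset.sum_congr rfl fun j _ => ?_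
    have : rexp (-(((s * q i) ^ 2 + (s * q j) ^ 2) * t)) =
        rexp (-((s * q i) ^ 2 * t)) * rexp (-((s * q j) ^ 2 * t)) := by
      rw [← Real.exp_add]; ring_nf
    rw [this]; ring
  have hint : ∀ i j, IntegrableOn (fun t => c i * c j * ((s * q i) ^ 2 * (s * q j) ^ 2) *
        (t ^ 2 * rexp (-(((s * q i) ^ 2 + (s * q j) ^ 2) * t)))) (Ioi 0) := by
    intro i j
    have h1 := hq i
    have h2 := hq j
    exact (integrableOn_sq_exp (by positivity)).const_mul _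
  have hI : IntegrableOn (fun t => rhoMix c q s t ^ 2 * t ^ 2) (Ioi 0) := by
    simp_rw [e]
    exact integrable_finsetSum _ fun i _ => integrable_finsetSum _ fun j _ => hint i j
  rw [← ofReal_integral_eq_lintegral_ofReal hI (Eventually.of_forall fun t => by positivity)]
  congr 1
  simp_rw [e]
  rw [integral_finsetSum _ fun i _ => integrable_finsetSum _ fun j _ => hint i j]
  unfold dMix
  rw [Finset.sum_div]
  refine Finset.sum_congr rfl fun i _ => ?_
  rw [integral_finsetSum _ fun j _ => hint i j, Finset.sum_div]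
  refine Finset.sum_congr rfl fun j _ => ?_
  have h1 := hq i
  have h2 := hq j
  rw [integral_const_mul, integral_sq_exp (by positivity)]
  have h3 : q i ^ 2 + q j ^ 2 ≠ 0 := by positivity
  have h4 : (s * q i) ^ 2 + (s * q j) ^ 2 = s ^ 2 * (q i ^ 2 + q j ^ 2) := by ring
  rw [h4]
  field_simp

lemma integrable_hMix_sq (c q : ι → ℝ) {s : ℝ} (hs : 0 < s) (hq : ∀ i, 0 < q i) :
    Integrable (fun ξ => hMix c q s ξ ^ 2) ∧
      ∫ ξ, hMix c q s ξ ^ 2 = s * π * nMix c q := by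
  have e : ∀ ξ, hMix c q s ξ ^ 2 =
      ∑ i, ∑ j, c i * c j * ((s * q i) ^ 2 * (s * q j) ^ 2) *
        (((s * q i) ^ 2 + ξ ^ 2)⁻¹ * ((s * q j) ^ 2 + ξ ^ 2)⁻¹) := by
    intro t
    unfold hMix
    rw [sq, Finset.sum_mul_sum]
    refine Finset.sum_congr rfl fun i _ => ?_
    refine Finset.sum_congr rfl fun j _ => ?_
    ring
  have hint : ∀ i j, Integrable (fun ξ => c i * c j * ((s * q i) ^ 2 * (s * q j) ^ 2) *
        (((s * q i) ^ 2 + ξ ^ 2)⁻¹ * ((s * q j) ^ 2 + ξ ^ 2)⁻¹)) := by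
    intro i j
    have h1 := hq i
    have h2 := hq j
    exact (integrable_inv_mul (by positivity) (by positivity)).const_mul _
  constructor
  · simp_rw [e]
    exact integrable_finsetSum _ fun i _ => integrable_finsetSum _ fun j _ => hint i j
  · simp_rw [e]
    rw [integral_finsetSum _ fun i _ => integrable_finsetSum _ fun j _ => hint i j]
    unfold nMix
    rw [Finset.mul_sum]
    refine Finset.sum_congr rfl fun i _ => ?_
    rw [integral_finsetSum _ fun j _ => hint i j, Finset.mul_sum]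
    refine Finset.sum_congr rfl fun j _ => ?_
    have h1 := hq i
    have h2 := hq j
    rw [integral_const_mul, integral_inv_mul (by positivity) (by positivity)]
    have h3 : q i + q j ≠ 0 := by positivity
    have h4 : s * q i + s * q j = s * (q i + q j) := by ring
    rw [h4]
    field_simp

end LT371
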