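import Vale.Agent.P371.Final

open MeasureTheory Set Real Filter Topology SchwartzMap

namespace LT371

/-- The mixture weights. -/
noncomputable def cc : Fin 10 → ℝ := ![23/10000, 3/500, 249/10000, 173/2000, 2653/10000, 597/1000, 4807/10000, -881/1250, 2933/10000, -32/625]

/-- The mixture rates. -/
noncomputable def qq : Fin 10 → ℝ := ![1, 2, 4, 8, 16, 32, 64, 128, 256, 512]

lemma qq_pos : ∀ i, 0 < qq i := by
  intro i
  fin_cases i <;> simp [qq] <;> norm_num

lemma cc_sum : ∑ i, cc i = 1 := by
  simp [cc, Fin.sum_univ_succ]
  norm_num

lemma nMix_val : nMix cc qq = 138285169481855124133/13781735253000000000 := by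
  unfold nMix
  simp [cc, qq, Fin.sum_univ_succ]
  norm_num

lemma dMix_val : dMix cc qq = 19490609381501069530613327597907919131000070267377707393320862918641078928257/47044894528867883019275303859310183007805460062945225722728042086400000000000000 := by
  unfold dMix
  simp [cc, qq, Fin.sum_univ_succ]
  norm_num

end LT371
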