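import Vale.Agent.P371.Core

open MeasureTheory Set Real Filter Topology SchwartzMap
open scoped FourierTransform ContDiff ComplexConjugate

namespace LT371

variable {H : Type*} [NormedAddCommGroup H] [InnerProductSpace ℂ H] [CompleteSpace H]

/-- Bessel's inequality at a point: the `L²` bound for filtered evaluation. -/
lemma bessel {N : ℕ} (ψ : Fin N → 𝓢(ℝ, H))
    (hψ : ∀ j k, ∫ x, inner ℂ (ψ j x) (ψ k x) = if j = k then (1 : ℂ) else 0)
    (g : ℝ → ℝ) (hgc : Continuous g) (hg : Integrable (fun ξ => g ξ ^ 2))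
    (e : H) (he : ‖e‖ = 1) (x : ℝ)
    (hI : ∀ j, Integrable (fun ξ => g ξ • (z x ξ • 𝓕 (ψ j) ξ))) :
    ∑ j, ‖inner ℂ e (∫ ξ, g ξ • (z x ξ • 𝓕 (ψ j) ξ))‖ ^ 2 ≤ ∫ ξ, g ξ ^ 2 := by
  classical
  -- the orthonormal family on the Fourier side
  let F : Fin N → Lp H 2 (volume : Measure ℝ) := fun j => (𝓕 (ψ j)).toLp 2 volume
  have hF : Orthonormal ℂ F := by
    rw [orthonormal_iff_ite]
    intro j k
    simp only [F]
    rw [inner_toL2_toL2_eq (𝓕 (ψ j)) (𝓕 (ψ k)) volume, integral_inner_fourier_fourier, hψ]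
  -- the test function
  let u : ℝ → H := fun ξ => (g ξ : ℂ) • (conj (z x ξ) • e)
  have huc : Continuous u := by
    have c1 : Continuous fun ξ => (g ξ : ℂ) := Complex.continuous_ofReal.comp hgc
    have c2 : Continuous fun ξ => conj (z x ξ) := Complex.continuous_conj.comp (continuous_z_right x)
    exact c1.smul (c2.smul continuous_const)
  have hunorm : ∀ ξ, ‖u ξ‖ = ‖g ξ‖ := by
    intro ξ
    simp only [u]
    rw [norm_smul, norm_smul, RCLike.norm_conj, norm_z, he]
    simp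
  have hgL : MemLp g 2 volume := (memLp_two_iff_integrable_sq hgc.aestronglyMeasurable).2 hg
  have hu : MemLp u 2 volume :=
    hgL.mono huc.aestronglyMeasurable (Eventually.of_forall fun ξ => (hunorm ξ).le)
  let U : Lp H 2 (volume : Measure ℝ) := hu.toLp u
  have hUu : U =ᵐ[volume] u := hu.coeFn_toLp
  have bes := hF.sum_inner_products_le (s := Finset.univ) (x := U)
  -- the inner products
  have hin : ∀ j, ‖inner ℂ (F j) U‖ = ‖inner ℂ e (∫ ξ, g ξ • (z x ξ • 𝓕 (ψ j) ξ))‖ := by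
    intro j
    rw [norm_inner_symm, L2.inner_def, ← integral_inner (hI j) e]
    congr 1
    have hFj : (F j : ℝ → H) =ᵐ[volume] ⇑(𝓕 (ψ j) : 𝓢(ℝ, H)) := (𝓕 (ψ j) : 𝓢(ℝ, H)).coeFn_toLp 2 volume
    refine integral_congr_ae ?_
    filter_upwards [hFj, hUu] with ξ h1 h2
    rw [h1, h2]
    simp only [u]
    rw [inner_smul_left, inner_smul_left, ← Complex.coe_smul, inner_smul_right, inner_smul_right]
    simp
  -- the norm
  have hnorm : ‖U‖ ^ 2 = ∫ ξ, g ξ ^ 2 := by
    have h1 : ((‖U‖ ^ 2 : ℝ) : ℂ) = inner ℂ U U := by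
      rw [inner_self_eq_norm_sq_to_K]
      simp
    rw [L2.inner_def] at h1
    have h2 : ∫ a, inner ℂ (U a) (U a) = ∫ ξ, ((g ξ ^ 2 : ℝ) : ℂ) := by
      refine integral_congr_ae ?_
      filter_upwards [hUu] with ξ h
      rw [h, inner_self_eq_norm_sq_to_K]
      have h3 : ‖u ξ‖ ^ 2 = g ξ ^ 2 := by rw [hunorm, Real.norm_eq_abs, sq_abs]
      have h4 : ((‖u ξ‖ : ℝ) : ℂ) ^ 2 = ((g ξ ^ 2 : ℝ) : ℂ) := by
        rw [← Complex.ofReal_pow, h3]
      exact h4
    rw [h2, integral_complex_ofReal] at h1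
    exact_mod_cast h1
  simp_rw [hin] at bes
  rw [hnorm] at bes
  exact bes

/-- The basic pointwise inequality. -/
lemma pointwise (ρ h : ℝ → ℝ) (hρc : Continuous ρ) (hρi : IntegrableOn ρ (Ioi 0))
    (hF : ∀ ξ, ∫ t in Ioi (0:ℝ), ρ t * (1 - G t ξ) = 1 - h ξ)
    (hhc : Continuous h) (hh : Integrable fun ξ => h ξ ^ 2)
    {n2 d : ℝ} (hn2 : ∫ ξ, h ξ ^ 2 ≤ n2) (hd0 : 0 < d)
    (hd : ∫⁻ t in Ioi (0:ℝ), ENNReal.ofReal (ρ t ^ 2 * t ^ 2) ≤ ENNReal.ofReal d)
    {N : ℕ} (ψ : Fin N → 𝓢(ℝ, H))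
    (hψ : ∀ j k, ∫ x, inner ℂ (ψ j x) (ψ k x) = if j = k then (1 : ℂ) else 0)
    (e : H) (he : ‖e‖ = 1) (x : ℝ) :
    ENNReal.ofReal (∑ j, ‖inner ℂ e (ψ j x)‖ ^ 2) ≤
      ENNReal.ofReal (3 / 2 * n2) + ENNReal.ofReal (3 * d) *
        ∫⁻ t in Ioi (0:ℝ), ENNReal.ofReal ((t ^ 2)⁻¹ * ∑ j, ‖inner ℂ e (Rt t (ψ j) x)‖ ^ 2) := by
  classical
  have dec := fun j => decomposition ρ h hρc hρi hF (ψ j) x
  have hn20 : 0 ≤ n2 := (integral_nonneg fun ξ => by positivity).trans hn2
  set a : Fin N → ℂ := fun j => inner ℂ e (ψ j x) with ha_def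
  set b : Fin N → ℂ := fun j => inner ℂ e (∫ ξ, h ξ • (z x ξ • 𝓕 (ψ j) ξ)) with hb_def
  set r : Fin N → ℝ → ℂ := fun j t => inner ℂ e (Rt t (ψ j) x) with hr_def
  set μ : ℝ := ∑ j, ‖a j‖ ^ 2 with hμ_def
  set E : ENNReal := ∫⁻ t in Ioi (0:ℝ), ENNReal.ofReal ((t ^ 2)⁻¹ * ∑ j, ‖r j t‖ ^ 2) with hE_def
  have hμ0 : 0 ≤ μ := Finset.sum_nonneg fun j _ => by positivity
  have hIr : ∀ j, IntegrableOn (fun t => (ρ t : ℂ) * r j t) (Ioi 0) := by
    intro j
    have := Integrable.const_inner (𝕜 := ℂ) e (dec j).1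
    refine this.congr (Eventually.of_forall fun t => ?_)
    simp only [hr_def]
    rw [inner_rsmul]
  have ha : ∀ j, a j = b j + ∫ t in Ioi (0:ℝ), (ρ t : ℂ) * r j t := by
    intro j
    simp only [ha_def]
    conv_lhs => rw [(dec j).2.2]
    rw [inner_add_right, ← integral_inner (dec j).1 e]
    congr 1
    refine integral_congr_ae (Eventually.of_forall fun t => ?_)
    simp only [hr_def]
    rw [inner_rsmul]
  -- the pairing
  set S : ℝ → ℂ := fun t => ∑ j, conj (a j) * ((ρ t : ℂ) * r j t) with hS_def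
  have hSi : IntegrableOn S (Ioi 0) :=
    integrable_finsetSum _ fun j _ => (hIr j).const_mul _
  set A : ℂ := ∑ j, conj (a j) * b j with hA_def
  set I : ℂ := ∫ t in Ioi (0:ℝ), S t with hI_def
  have hpair : (μ : ℂ) = A + I := by
    have e1 : I = ∑ j, conj (a j) * ∫ t in Ioi (0:ℝ), (ρ t : ℂ) * r j t := by
      simp only [hI_def, hS_def]
      rw [integral_finsetSum _ fun j _ => (hIr j).const_mul _]
      refine Finset.sum_congr rfl fun j _ => ?_
      rw [integral_const_mul]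
    rw [e1, hA_def, ← Finset.sum_add_distrib, hμ_def]
    push_cast
    refine Finset.sum_congr rfl fun j _ => ?_
    rw [← mul_add, ← ha j, mul_comm, Complex.mul_conj]
    rw [Complex.normSq_eq_norm_sq]
    push_cast
    ring
  have hμle : μ ≤ ‖A‖ + ‖I‖ := by
    have h1 : μ = (A + I).re := by rw [← hpair]; simp
    rw [h1]
    exact (Complex.re_le_norm _).trans (norm_add_le _ _)
  -- the low-pass term
  have hAb : ‖A‖ ≤ μ / 3 + 3 / 4 * n2 := by
    have hB : ∑ j, ‖b j‖ ^ 2 ≤ n2 :=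
      (bessel ψ hψ h hhc hh e he x fun j => (dec j).2.1).trans hn2
    calc ‖A‖ ≤ ∑ j, ‖conj (a j) * b j‖ := norm_sum_le _ _
      _ ≤ ∑ j, (‖a j‖ ^ 2 / 3 + 3 / 4 * ‖b j‖ ^ 2) := by
          refine Finset.sum_le_sum fun j _ => ?_
          rw [norm_mul, RCLike.norm_conj]
          nlinarith [sq_nonneg (‖a j‖ - 3 / 2 * ‖b j‖)]
      _ = μ / 3 + 3 / 4 * ∑ j, ‖b j‖ ^ 2 := by
          rw [Finset.sum_add_distrib, ← Finset.sum_div, Finset.mul_sum]
      _ ≤ _ := by gcongr
  -- the high-pass term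
  have hIb : ENNReal.ofReal ‖I‖ ≤ ENNReal.ofReal (μ / 6) + ENNReal.ofReal (3 * d / 2) * E := by
    rw [ofReal_norm]
    calc ‖I‖ₑ ≤ ∫⁻ t in Ioi (0:ℝ), ‖S t‖ₑ := enorm_integral_le_lintegral_enorm _
      _ ≤ ∫⁻ t in Ioi (0:ℝ), (ENNReal.ofReal (μ / (6 * d)) * ENNReal.ofReal (ρ t ^ 2 * t ^ 2) +
            ENNReal.ofReal (3 * d / 2) *
              ENNReal.ofReal ((t ^ 2)⁻¹ * ∑ j, ‖r j t‖ ^ 2)) := by
          refine setLIntegral_mono' measurableSet_Ioi fun t ht => ?_
          have ht' : (0:ℝ) < t := ht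
          rw [← ENNReal.ofReal_mul (by positivity), ← ENNReal.ofReal_mul (by positivity),
            ← ENNReal.ofReal_add (by positivity) (by positivity), ← ofReal_norm]
          refine ENNReal.ofReal_le_ofReal ?_
          calc ‖S t‖ ≤ ∑ j, ‖conj (a j) * ((ρ t : ℂ) * r j t)‖ := norm_sum_le _ _
            _ ≤ ∑ j, (‖a j‖ ^ 2 / (6 * d) * (ρ t ^ 2 * t ^ 2) +
                  3 * d / 2 * ((t ^ 2)⁻¹ * ‖r j t‖ ^ 2)) := by
                refine Finset.sum_le_sum fun j _ => ?_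
                rw [norm_mul, norm_mul, RCLike.norm_conj, Complex.norm_real, Real.norm_eq_abs]
                set X := ‖a j‖ * |ρ t| * t
                set Y := ‖r j t‖ * t⁻¹
                have hXY : ‖a j‖ * (|ρ t| * ‖r j t‖) = X * Y := by
                  simp only [X, Y]
                  field_simp
                have hX2 : ‖a j‖ ^ 2 / (6 * d) * (ρ t ^ 2 * t ^ 2) = X ^ 2 / (6 * d) := by
                  simp only [X]
                  rw [mul_pow, mul_pow, sq_abs]
                  ring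
                have hY2 : 3 * d / 2 * ((t ^ 2)⁻¹ * ‖r j t‖ ^ 2) = 3 * d / 2 * Y ^ 2 := by
                  simp only [Y]
                  rw [mul_pow, inv_pow]
                  ring
                rw [hXY, hX2, hY2]
                have key : 0 ≤ (X / (6 * d) * 2 * d - Y * d) ^ 2 / (6 * d) * 0 +
                    (X - 3 * d * Y) ^ 2 / (6 * d) := by positivity
                have e3 : (X - 3 * d * Y) ^ 2 / (6 * d) =
                    X ^ 2 / (6 * d) - X * Y + 3 * d / 2 * Y ^ 2 := by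
                  field_simp
                  ring
                simp only [mul_zero, zero_add] at key
                rw [e3] at key
                linarith
            _ = μ / (6 * d) * (ρ t ^ 2 * t ^ 2) + 3 * d / 2 * ((t ^ 2)⁻¹ * ∑ j, ‖r j t‖ ^ 2) := by
                rw [Finset.sum_add_distrib, ← Finset.sum_mul, ← Finset.sum_div, ← Finset.mul_sum,
                  ← Finset.mul_sum]
      _ = ENNReal.ofReal (μ / (6 * d)) * (∫⁻ t in Ioi (0:ℝ), ENNReal.ofReal (ρ t ^ 2 * t ^ 2)) +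
            ENNReal.ofReal (3 * d / 2) * E := by
          have hm : AEMeasurable (fun t : ℝ => ENNReal.ofReal (μ / (6 * d)) *
              ENNReal.ofReal (ρ t ^ 2 * t ^ 2)) (volume.restrict (Ioi 0)) := by
            refine AEMeasurable.const_mul ?_ _
            refine (Measurable.ennreal_ofReal ?_).aemeasurable
            have := hρc.measurable
            fun_prop
          rw [lintegral_add_left' hm, lintegral_const_mul' _ _ ENNReal.ofReal_ne_top,
            lintegral_const_mul' _ _ ENNReal.ofReal_ne_top]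
      _ ≤ ENNReal.ofReal (μ / (6 * d)) * ENNReal.ofReal d +
            ENNReal.ofReal (3 * d / 2) * E := add_le_add (mul_le_mul' le_rfl hd) le_rfl
      _ = _ := by
          rw [← ENNReal.ofReal_mul (by positivity)]
          congr 2
          field_simp
  -- combine
  by_cases hE : E = ⊤
  · rw [hE, ENNReal.mul_top]
    · simp
    · simp [hd0]
  · have hIr : ‖I‖ ≤ μ / 6 + 3 * d / 2 * E.toReal := by
      have h1 : ENNReal.ofReal (μ / 6) + ENNReal.ofReal (3 * d / 2) * E =
          ENNReal.ofReal (μ / 6 + 3 * d / 2 * E.toReal) := by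
        rw [ENNReal.ofReal_add (by positivity) (by positivity),
          ENNReal.ofReal_mul (by positivity), ENNReal.ofReal_toReal hE]
      rw [h1] at hIb
      exact (ENNReal.ofReal_le_ofReal_iff (by positivity)).1 hIb
    have hfinal : μ ≤ 3 / 2 * n2 + 3 * d * E.toReal := by linarith
    calc ENNReal.ofReal μ ≤ ENNReal.ofReal (3 / 2 * n2 + 3 * d * E.toReal) :=
          ENNReal.ofReal_le_ofReal hfinal
      _ = _ := by
          rw [ENNReal.ofReal_add (by positivity) (by positivity),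
            ENNReal.ofReal_mul (by positivity : 0 ≤ 3 * d), ENNReal.ofReal_toReal hE]

end LT371
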