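import Mathlib

open MeasureTheory Set Real Filter Topology intervalIntegral

namespace LT371

/-! Scalar integrals. -/

lemma lint_exp {σ : ℝ} (hσ : 0 < σ) :
    ∫⁻ t in Ioi (0:ℝ), ENNReal.ofReal (rexp (-(t * σ))) = ENNReal.ofReal (1 / σ) := by
  have hi : IntegrableOn (fun t : ℝ => rexp (-(t * σ))) (Ioi 0) := by
    have := (integrableOn_exp_mul_Ioi (a := -σ) (by linarith) 0)
    refine this.congr_fun (fun t _ => ?_) measurableSet_Ioi
    simp only; ring_nf
  rw [← ofReal_integral_eq_lintegral_ofReal hi (Eventually.of_forall fun t => (exp_pos _).le)]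
  congr 1
  have := integral_exp_mul_Ioi (a := -σ) (by linarith) 0
  have e : ∀ t : ℝ, rexp (-(t * σ)) = rexp (-σ * t) := fun t => by ring_nf
  simp_rw [e, this]
  simp

lemma peano_one {t A : ℝ} (ht : 0 < t) (hA : 0 ≤ A) :
    ∫ s in Ioc (0:ℝ) A, s * rexp (-(s * t)) = 1 / t ^ 2 - (A / t + 1 / t ^ 2) * rexp (-(A * t)) := by
  have hd : ∀ s ∈ uIcc 0 A, HasDerivAt (fun s => -(s / t + 1 / t ^ 2) * rexp (-(s * t)))
      (s * rexp (-(s * t))) s := by
    intro s _
    have h1 : HasDerivAt (fun s : ℝ => rexp (-(s * t))) (rexp (-(s * t)) * (-(1 * t))) s :=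
      (((hasDerivAt_id s).mul_const t).neg).exp
    have h2 : HasDerivAt (fun s : ℝ => -(s / t + 1 / t ^ 2)) (-(1 / t + 0)) s :=
      (((hasDerivAt_id s).div_const t).add_const _ |>.congr_deriv (by simp)).neg
    refine (HasDerivAt.mul h2 h1).congr_deriv ?_
    field_simp
    ring
  have hc : Continuous fun s : ℝ => s * rexp (-(s * t)) := by fun_prop
  have := integral_eq_sub_of_hasDerivAt hd (hc.intervalIntegrable _ _)
  rw [intervalIntegral.integral_of_le hA] at this
  rw [this]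
  simp
  ring

lemma peano_two {t A : ℝ} (ht : 0 < t) (hA : 0 ≤ A) :
    ∫ s in Ioc A (2 * A), (2 * A - s) * rexp (-(s * t))
      = rexp (-(2 * A * t)) / t ^ 2 + (A / t - 1 / t ^ 2) * rexp (-(A * t)) := by
  have hd : ∀ s ∈ uIcc A (2 * A), HasDerivAt (fun s => -((2 * A - s) / t - 1 / t ^ 2) * rexp (-(s * t)))
      ((2 * A - s) * rexp (-(s * t))) s := by
    intro s _
    have h1 : HasDerivAt (fun s : ℝ => rexp (-(s * t))) (rexp (-(s * t)) * (-(1 * t))) s :=
      (((hasDerivAt_id s).mul_const t).neg).exp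
    have h2 : HasDerivAt (fun s : ℝ => -((2 * A - s) / t - 1 / t ^ 2)) (-((0 - 1) / t - 0)) s := by
      have := (((hasDerivAt_id s).const_sub (2 * A)).div_const t).sub_const (1 / t ^ 2)
      exact (this.congr_deriv (by simp)).neg
    refine (HasDerivAt.mul h2 h1).congr_deriv ?_
    field_simp
    ring
  have hc : Continuous fun s : ℝ => (2 * A - s) * rexp (-(s * t)) := by fun_prop
  have := integral_eq_sub_of_hasDerivAt hd (hc.intervalIntegrable _ _)
  rw [intervalIntegral.integral_of_le (by linarith)] at this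
  rw [this]
  simp
  ring

lemma peano_id {t A : ℝ} (ht : 0 < t) (hA : 0 ≤ A) :
    (t ^ 2)⁻¹ * (1 - rexp (-(t * A))) ^ 2 =
      (∫ s in Ioc (0:ℝ) A, s * rexp (-(s * t))) +
        ∫ s in Ioc A (2 * A), (2 * A - s) * rexp (-(s * t)) := by
  rw [peano_one ht hA, peano_two ht hA]
  have e1 : rexp (-(t * A)) = rexp (-(A * t)) := by ring_nf
  have e2 : rexp (-(2 * A * t)) = rexp (-(A * t)) ^ 2 := by
    rw [← Real.exp_nat_mul]; ring_nf
  rw [e1, e2]
  field_simp
  ring

/-- The energy integral of the heat filter. -/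
lemma lint_energy (A : ℝ) (hA : 0 ≤ A) :
    ∫⁻ t in Ioi (0:ℝ), ENNReal.ofReal ((t ^ 2)⁻¹ * (1 - rexp (-(t * A))) ^ 2)
      ≤ ENNReal.ofReal (2 * Real.log 2 * A) := by
  rcases hA.eq_or_lt with rfl | hA'
  · simp
  -- piece one
  have hp1 : ∀ t ∈ Ioi (0:ℝ), ENNReal.ofReal ((t ^ 2)⁻¹ * (1 - rexp (-(t * A))) ^ 2) =
      (∫⁻ s in Ioc (0:ℝ) A, ENNReal.ofReal (s * rexp (-(s * t)))) +
        ∫⁻ s in Ioc A (2 * A), ENNReal.ofReal ((2 * A - s) * rexp (-(s * t))) := by
    intro t ht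
    have ht' : (0:ℝ) < t := ht
    have i1 : IntegrableOn (fun s : ℝ => s * rexp (-(s * t))) (Ioc 0 A) :=
      (Continuous.integrableOn_Icc (by fun_prop)).mono_set Ioc_subset_Icc_self
    have i2 : IntegrableOn (fun s : ℝ => (2 * A - s) * rexp (-(s * t))) (Ioc A (2 * A)) :=
      (Continuous.integrableOn_Icc (by fun_prop)).mono_set Ioc_subset_Icc_self
    have n1 : 0 ≤ᵐ[volume.restrict (Ioc 0 A)] fun s : ℝ => s * rexp (-(s * t)) := by
      filter_upwards [ae_restrict_mem measurableSet_Ioc] with s hs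
      exact mul_nonneg hs.1.le (exp_pos _).le
    have n2 : 0 ≤ᵐ[volume.restrict (Ioc A (2 * A))] fun s : ℝ => (2 * A - s) * rexp (-(s * t)) := by
      filter_upwards [ae_restrict_mem measurableSet_Ioc] with s hs
      exact mul_nonneg (by linarith [hs.2]) (exp_pos _).le
    rw [← ofReal_integral_eq_lintegral_ofReal i1 n1, ← ofReal_integral_eq_lintegral_ofReal i2 n2,
      ← ENNReal.ofReal_add (integral_nonneg_of_ae n1) (integral_nonneg_of_ae n2), peano_id ht' hA]
  rw [setLIntegral_congr_fun measurableSet_Ioi hp1]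
  rw [lintegral_add_left' (by
    refine (Measurable.lintegral_prod_left' (f := fun p : ℝ × ℝ =>
      ENNReal.ofReal (p.1 * rexp (-(p.1 * p.2)))) (by fun_prop)).aemeasurable)]
  -- swap
  have sw1 : ∫⁻ t in Ioi (0:ℝ), ∫⁻ s in Ioc (0:ℝ) A, ENNReal.ofReal (s * rexp (-(s * t))) =
      ∫⁻ s in Ioc (0:ℝ) A, ∫⁻ t in Ioi (0:ℝ), ENNReal.ofReal (s * rexp (-(s * t))) := by
    refine lintegral_lintegral_swap ?_
    exact (by fun_prop : Measurable fun p : ℝ × ℝ => ENNReal.ofReal (p.2 * rexp (-(p.2 * p.1)))).aemeasurable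
  have sw2 : ∫⁻ t in Ioi (0:ℝ), ∫⁻ s in Ioc A (2 * A), ENNReal.ofReal ((2 * A - s) * rexp (-(s * t))) =
      ∫⁻ s in Ioc A (2 * A), ∫⁻ t in Ioi (0:ℝ), ENNReal.ofReal ((2 * A - s) * rexp (-(s * t))) := by
    refine lintegral_lintegral_swap ?_
    exact (by fun_prop : Measurable fun p : ℝ × ℝ => ENNReal.ofReal ((2 * A - p.2) * rexp (-(p.2 * p.1)))).aemeasurable
  rw [sw1, sw2]
  have in1 : ∀ s ∈ Ioc (0:ℝ) A, ∫⁻ t in Ioi (0:ℝ), ENNReal.ofReal (s * rexp (-(s * t))) = 1 := by
    intro s hs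
    have hs0 : 0 < s := hs.1
    have e : ∀ t : ℝ, ENNReal.ofReal (s * rexp (-(s * t))) =
        ENNReal.ofReal s * ENNReal.ofReal (rexp (-(t * s))) := fun t => by
      rw [ENNReal.ofReal_mul hs0.le]; ring_nf
    simp_rw [e]
    rw [lintegral_const_mul' _ _ ENNReal.ofReal_ne_top, lint_exp hs0,
      ← ENNReal.ofReal_mul hs0.le]
    field_simp
    simp
  have in2 : ∀ s ∈ Ioc A (2 * A), ∫⁻ t in Ioi (0:ℝ), ENNReal.ofReal ((2 * A - s) * rexp (-(s * t))) =
      ENNReal.ofReal (2 * A * s⁻¹ - 1) := by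
    intro s hs
    have hs0 : 0 < s := hA'.trans hs.1
    have hw : 0 ≤ 2 * A - s := by linarith [hs.2]
    have e : ∀ t : ℝ, ENNReal.ofReal ((2 * A - s) * rexp (-(s * t))) =
        ENNReal.ofReal (2 * A - s) * ENNReal.ofReal (rexp (-(t * s))) := fun t => by
      rw [ENNReal.ofReal_mul hw]; ring_nf
    simp_rw [e]
    rw [lintegral_const_mul' _ _ ENNReal.ofReal_ne_top, lint_exp hs0, ← ENNReal.ofReal_mul hw]
    congr 1
    field_simp
  rw [setLIntegral_congr_fun measurableSet_Ioc in1, setLIntegral_congr_fun measurableSet_Ioc in2]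
  have e3 : ∫⁻ _s in Ioc (0:ℝ) A, (1 : ENNReal) = ENNReal.ofReal A := by
    simp [hA'.le]
  have i3 : IntegrableOn (fun s : ℝ => 2 * A * s⁻¹ - 1) (Ioc A (2 * A)) := by
    refine (ContinuousOn.integrableOn_Icc ?_).mono_set Ioc_subset_Icc_self
    refine ContinuousOn.sub (continuousOn_const.mul (continuousOn_inv₀.mono ?_)) continuousOn_const
    intro s hs
    have : 0 < s := hA'.trans_le hs.1
    exact this.ne'
  have n3 : 0 ≤ᵐ[volume.restrict (Ioc A (2 * A))] fun s : ℝ => 2 * A * s⁻¹ - 1 := by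
    filter_upwards [ae_restrict_mem measurableSet_Ioc] with s hs
    have hs0 : 0 < s := hA'.trans hs.1
    have : 1 ≤ 2 * A * s⁻¹ := by
      rw [← div_eq_mul_inv, le_div_iff₀ hs0]
      linarith [hs.2]
    change (0:ℝ) ≤ 2 * A * s⁻¹ - 1
    linarith
  have v3 : ∫ s in Ioc A (2 * A), (2 * A * s⁻¹ - 1) = 2 * A * Real.log 2 - A := by
    rw [← intervalIntegral.integral_of_le (by linarith)]
    rw [intervalIntegral.integral_sub, intervalIntegral.integral_const_mul, integral_inv_of_pos hA' (by linarith)]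
    · have : 2 * A / A = 2 := by field_simp
      rw [this]
      simp
      ring
    · refine ContinuousOn.intervalIntegrable ?_
      refine continuousOn_const.mul (continuousOn_inv₀.mono ?_)
      intro s hs
      rw [uIcc_of_le (by linarith)] at hs
      exact (hA'.trans_le hs.1).ne'
    · exact intervalIntegrable_const
  rw [e3, ← ofReal_integral_eq_lintegral_ofReal i3 n3, v3, ← ENNReal.ofReal_add hA'.le (by
    have := integral_nonneg_of_ae n3
    rw [v3] at this
    exact this)]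
  apply le_of_eq
  congr 1
  ring

end LT371
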